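import Vale.Agent.P030.H579.TwGlue

/-!
# P030, the 2-adic certificate of design A (helper534's five constants) as piecewise linear
potentials; the total is `14007/4` (in units `s² log 2`).
-/

open Finset

namespace Vale.Agent.P030.H579

open Vale.Agent.P030.T

/-- `∑ g : Gp` written out -/
theorem sum_Gp {M : Type*} [AddCommMonoid M] (f : Gp → M) :
    ∑ g, f g = f .z1 + (f .zl + (f .z8 + (f .zab + (f .w1 + (f .wl + (f .wy + (f .w8
      + (f .wab + (f .wf7 + (f .v2 + (f .vl + (f .v8 + (f .vb + (f .x2 + (f .xl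
      + f .x1))))))))))))))) := by
  have h : (Finset.univ : Finset Gp) = {.z1, .zl, .z8, .zab, .w1, .wl, .wy, .w8, .wab, .wf7,
    .v2, .vl, .v8, .vb, .x2, .xl, .x1} := rfl
  rw [h]
  repeat rw [Finset.sum_insert (by decide)]
  rw [Finset.sum_singleton]

/-- design A -/
def parA : Par where
  D0 := 27
  ht := fun g => match g with
    | .z1 => 32 | .zl => 32 | .z8 => 4 | .zab => 4
    | .w1 => 32 | .wl => 32 | .wy => 32 | .w8 => 2 | .wab => 2 | .wf7 => 2
    | .v2 => 12 | .vl => 4 | .v8 => 4 | .vb => 4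
    | .x2 => 10 | .xl => 4 | .x1 => 4

theorem parA_card : ∑ g : Gp, parA.ht g = 8 * parA.D0 := by
  rw [sum_Gp]; rfl

/-- row potentials of design A; lines `1, l+L, L, D', 6', g` and the two Hermite lines -/
def rowA : Fin 8 → PL := ![
  .cons 12 (-27) 0 (.last (-39) 1),
  .cons 21 (-18) 0 (.last (-39) 1),
  .cons 5 (-27) 0 (.last (-32) 1),
  .cons 16 (-23) 0 (.last (-39) 1),
  .last (-39) 1,
  .cons 14 (-18) 0 (.last (-32) 1),
  .cons 11 0 (-2) (.cons (43 / 2) 21 (-2) (.cons (47 / 2) 25 (-2) (.last (-185 / 2) 3))),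
  .cons 11 0 (-2) (.cons (43 / 2) 21 (-2) (.cons (47 / 2) 25 (-2) (.last (-185 / 2) 3)))]

/-- column potentials of design A -/
def colA : Gp → PL
  | .z1 => .cons (27 / 2) 27 0 (.last 0 2)
  | .zl => .last 18 0
  | .z8 => .last 0 2
  | .zab => .last 23 0
  | .w1 => .last 39 0
  | .wl => .last 32 0
  | .wy => .cons (25 / 2) 39 0 (.last 14 2)
  | .w8 => .last 14 2
  | .wab => .last 39 0
  | .wf7 => .last 39 0
  | .v2 => .last 23 0
  | .vl => .last 18 0
  | .v8 => .last 18 2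
  | .vb => .last 27 0
  | .x2 => .cons (11 / 2) 39 0 (.last 28 2)
  | .xl => .cons 2 32 0 (.last 28 2)
  | .x1 => .last 39 0

theorem rowA_ok : ∀ j, (rowA j).ok 0 parA.D0 := by
  intro j
  fin_cases j <;> simp [rowA, PL.ok, parA] <;> norm_num

theorem colA_ok : ∀ g, (colA g).ok 0 (parA.ht g) := by
  intro g
  cases g <;> simp [colA, PL.ok, parA] <;> norm_num

theorem totA : tot parA (735 / 4) rowA colA = 14007 / 4 := by
  unfold tot
  rw [sum_Gp, Fin.sum_univ_eight]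
  simp [rowA, colA, PL.area, parA]
  norm_num

/-- **StTW for design A**, `B2 = 3501.75 log 2`, from the entry bounds -/
theorem stTW_A {c0 : ℕ}
    (h : ∀ x : ℚ, ∀ η : ℝ, 0 < η → ∃ s0 : ℕ, ∀ s, s0 ≤ s →
      ∃ U : Matrix (Fin (parA.D0 * s) × Fin 8) (Fin (parA.D0 * s) × Fin 8) ℚ_[2],
        (2 : ℝ) ^ (-(((735 / 4 : ℚ) + η) * (s : ℝ) ^ 2)) ≤ ‖U.det‖ ∧
        ∀ c : Cl, c.2 < parA.ht c.1 * s + c0 → ∀ r,
          ‖∑ r', U r r' * ((En (parA.D0 * s) x r' c : ℚ) : ℚ_[2])‖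
            ≤ (2 : ℝ) ^ (rowPot rowA (parA.D0 * s) s r + colPot colA s c + η * s)) :
    StTW parA c0 (14007 / 4 * Real.log 2) := by
  have h1 := stTW_of_entries (P := parA) (c0 := c0) parA_card (735 / 4) rowA colA rowA_ok
    colA_ok h
  rw [totA] at h1
  norm_num at h1 ⊢
  exact h1

end Vale.Agent.P030.H579
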