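import Vale.Agent.P030.H579.TwAsm

/-!
# P030, the 2-adic place: `StTW` for the frozen design from the K-rows

`stTW_F : KRowIn c0 → StTW parA c0 (13945/4 * log 2)`.
-/

open Finset

namespace Vale.Agent.P030.H579

open Vale.Agent.P030.T Vale.Agent.P030.H869 Vale.Agent.P030.H622
open Vale.Agent.P030.H486 (bnd tab cst Kd tab6 tabd t6 td)

/-! ### the polylogarithmic lines -/

theorem bnd_le {n i k s : ℕ} (hn : n + 1 = 27 * s) (hs : 1 ≤ s) (hi : i ≤ n) (kd : Kd) :
    bnd n i k kd ≤ 2 * (2 : ℝ) ^ ((s : ℝ) * ke kd ((i : ℝ) / s)) := by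
  have hs0 : (0 : ℝ) < s := by exact_mod_cast hs
  have hm : (s : ℝ) * ((i : ℝ) / s) = i := by field_simp
  have hpow : (2 : ℝ) ^ i = (2 : ℝ) ^ (i : ℝ) := (Real.rpow_natCast 2 i).symm
  have hpos : (0 : ℝ) < (2 : ℝ) ^ (i : ℝ) := Real.rpow_pos_of_pos two_pos _
  cases kd
  case no =>
    simp only [bnd]
    exact mul_nonneg two_pos.le (Real.rpow_pos_of_pos two_pos _).le
  case one => simp [bnd, ke]
  case up =>
    simp only [bnd, ke, hm, hpow]
    linarith
  case low =>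
    simp only [bnd, ke, mul_zero, Real.rpow_zero]
    split_ifs <;> norm_num
  case top =>
    simp only [bnd, ke, hm, hpow]
    split_ifs
    · positivity
    · linarith
  case down =>
    simp only [bnd, ke]
    have e1 : (s : ℝ) * ((i : ℝ) / s - 27) = i - 27 * s := by rw [mul_sub, hm]; ring
    have e2 : ((1 : ℝ) / 2) ^ (n - i) = (2 : ℝ) ^ (-((n : ℝ) - i)) := by
      rw [Real.rpow_neg two_pos.le, ← Nat.cast_sub hi, Real.rpow_natCast, one_div, inv_pow]
    have e3 : (n : ℝ) + 1 = 27 * s := by exact_mod_cast hn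
    have e4 : -((n : ℝ) - i) = 1 + ((i : ℝ) - 27 * s) := by linarith
    rw [e1, e2, e4, Real.rpow_add two_pos, Real.rpow_one]

theorem cst_nonneg' (n k : ℕ) : 0 ≤ cst n k := H486.cst_nonneg

theorem poly_pot {n i k s : ℕ} (hn : n + 1 = 27 * s) (hs : 1 ≤ s) (hi : i ≤ n) (kd : Kd)
    {E ζ : ℝ} (hk : kd ≠ .no → (s : ℝ) * ke kd ((i : ℝ) / s) ≤ E)
    (hc : 2 * cst n k ≤ (2 : ℝ) ^ ζ) :
    cst n k * bnd n i k kd ≤ (2 : ℝ) ^ (E + ζ) := by
  by_cases h0 : kd = .no
  · subst h0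
    simp only [bnd, mul_zero]
    exact (Real.rpow_pos_of_pos two_pos _).le
  · have h1 := bnd_le (k := k) hn hs hi kd
    have h2 : (2 : ℝ) ^ ((s : ℝ) * ke kd ((i : ℝ) / s)) ≤ (2 : ℝ) ^ E :=
      Real.rpow_le_rpow_of_exponent_le one_le_two (hk h0)
    rw [Real.rpow_add two_pos]
    calc cst n k * bnd n i k kd ≤ cst n k * (2 * (2 : ℝ) ^ ((s : ℝ) * ke kd ((i : ℝ) / s))) :=
          mul_le_mul_of_nonneg_left h1 (cst_nonneg' n k)
      _ = (2 * cst n k) * (2 : ℝ) ^ ((s : ℝ) * ke kd ((i : ℝ) / s)) := by ring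
      _ ≤ (2 : ℝ) ^ ζ * (2 : ℝ) ^ E := mul_le_mul hc h2
          (Real.rpow_pos_of_pos two_pos _).le (Real.rpow_pos_of_pos two_pos _).le
      _ = _ := mul_comm _ _

/-! ### the columns of the family -/

/-- kinds of the family columns -/
def tabF (H : ℕ) (g : Gp) (k : ℕ) (ty : Fin 8) : Kd :=
  if g = .wf7 then tabd ty else if g = .wy ∧ k < H then tab6 ty else tab ty g

theorem Fe_wf7 (D : ℕ) (x : ℚ) (H : ℕ) (r : Fin D × Fin 8) (k : ℕ) :
    Fe D x H r (.wf7, k) = ed D k r := rfl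

theorem Fe_wy (D : ℕ) (x : ℚ) (H : ℕ) (r : Fin D × Fin 8) (k : ℕ) (h : k < H) :
    Fe D x H r (.wy, k) = e6 D k r := by
  simp [Fe, h]

theorem Fe_other (D : ℕ) (x : ℚ) (H : ℕ) (r : Fin D × Fin 8) (g : Gp) (k : ℕ) (h1 : g ≠ .wf7)
    (h2 : ¬ (g = .wy ∧ k < H)) : Fe D x H r (g, k) = En D x r (g, k) := by
  cases g
  case wf7 => exact absurd rfl h1
  case wy =>
    have : ¬ k < H := fun h => h2 ⟨rfl, h⟩
    simp [Fe, this]
  all_goals rfl

theorem exists_UF {D n : ℕ} (hD : D = n + 1) (h tF tT : Fin (n + 1) → Polynomial ℚ_[2]) (x : ℚ)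
    (H : ℕ) : ∃ U : Matrix (Fin D × Fin 8) (Fin D × Fin 8) ℚ_[2],
      ‖U.det‖ = ‖(Matrix.of fun i a : Fin (n + 1) => (h i).coeff a).det‖ ^ 2 ∧
      ∀ (i : Fin D) (ty : Fin 8) (g : Gp) (k : ℕ),
        ((ty : ℕ) < 6 → (g = .vb ∨ g = .x1 → k ≤ n) →
          ‖∑ r', U (i, ty) r' * ((Fe D x H r' (g, k) : ℚ) : ℚ_[2])‖
            ≤ cst n k * bnd n i k (tabF H g k ty)) ∧
        (ty = 6 → ‖∑ r', U (i, ty) r' * ((Fe D x H r' (g, k) : ℚ) : ℚ_[2])‖
          ≤ ‖rowVal ℚ_[2] (n + 1) (algebraMap ℚ ℚ_[2] x) g k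
              (krow 6 (h (Fin.cast hD i)) (tF (Fin.cast hD i)))‖) ∧
        (ty = 7 → ‖∑ r', U (i, ty) r' * ((Fe D x H r' (g, k) : ℚ) : ℚ_[2])‖
          ≤ ‖rowVal ℚ_[2] (n + 1) (algebraMap ℚ ℚ_[2] x) g k
              (krow 7 (h (Fin.cast hD i)) (tT (Fin.cast hD i)))‖) := by
  subst hD
  refine ⟨Uf ℚ_[2] (fam n h tF tT), ?_, fun i ty g k => ?_⟩
  · rw [det_Uf ℚ_[2] _ brkE (fam_tri n h tF tT), Fin.prod_univ_eight,
      det_blk_fam_low n h tF tT 0 (by decide), det_blk_fam_low n h tF tT 1 (by decide),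
      det_blk_fam_low n h tF tT 2 (by decide), det_blk_fam_low n h tF tT 3 (by decide),
      det_blk_fam_low n h tF tT 4 (by decide), det_blk_fam_low n h tF tT 5 (by decide),
      blk_fam_six, blk_fam_seven, norm_mul, norm_mul]
    simp only [mul_one, norm_one, one_mul]
    ring
  · by_cases hg1 : g = .wf7
    · subst hg1
      have e1 : ∑ r', Uf ℚ_[2] (fam n h tF tT) (i, ty) r'
          * ((Fe (n + 1) x H r' (.wf7, k) : ℚ) : ℚ_[2])
          = rowTup ℚ_[2] (n + 1) 1 k (fun j => (td j).map (algebraMap ℚ ℚ_[2]))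
            (fam n h tF tT (i, ty)) :=
        Uf_tup_cast (fam n h tF tT) (i, ty) 1 td k
      rw [e1]
      refine ⟨fun hty _ => ?_, fun hty => ?_, fun hty => ?_⟩
      · have : tabF H .wf7 k ty = tabd ty := by simp [tabF]
        rw [this]
        exact norm_fam_low_td n h tF tT i ty hty k
      · subst hty
        rw [fam_six, rowTup_krow_td _ _ _ _ (Or.inl rfl), norm_zero]
        exact norm_nonneg _
      · subst hty
        rw [fam_seven, rowTup_krow_td _ _ _ _ (Or.inr rfl), norm_zero]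
        exact norm_nonneg _
    · by_cases hg2 : g = .wy ∧ k < H
      · obtain ⟨rfl, hkH⟩ := hg2
        have e1 : ∑ r', Uf ℚ_[2] (fam n h tF tT) (i, ty) r'
            * ((Fe (n + 1) x H r' (.wy, k) : ℚ) : ℚ_[2])
            = rowTup ℚ_[2] (n + 1) 1 k (fun j => (t6 j).map (algebraMap ℚ ℚ_[2]))
              (fam n h tF tT (i, ty)) := by
          simp only [Fe_wy _ _ _ _ _ hkH]
          exact Uf_tup_cast (fam n h tF tT) (i, ty) 1 t6 k
        rw [e1]
        refine ⟨fun hty _ => ?_, fun hty => ?_, fun hty => ?_⟩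
        · have : tabF H .wy k ty = tab6 ty := by simp [tabF, hkH]
          rw [this]
          exact norm_fam_low_t6 n h tF tT i ty hty k
        · subst hty
          rw [fam_six, rowTup_krow_t6 _ _ _ _ (Or.inl rfl), norm_zero]
          exact norm_nonneg _
        · subst hty
          rw [fam_seven, rowTup_krow_t6 _ _ _ _ (Or.inr rfl), norm_zero]
          exact norm_nonneg _
      · have e1 : ∑ r', Uf ℚ_[2] (fam n h tF tT) (i, ty) r'
            * ((Fe (n + 1) x H r' (g, k) : ℚ) : ℚ_[2])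
            = rowVal ℚ_[2] (n + 1) (algebraMap ℚ ℚ_[2] x) g k (fam n h tF tT (i, ty)) := by
          simp only [Fe_other _ _ _ _ _ _ hg1 hg2]
          exact Uf_En_cast (fam n h tF tT) x (i, ty) (g, k)
        rw [e1]
        refine ⟨fun hty hvx => ?_, fun hty => ?_, fun hty => ?_⟩
        · have : tabF H g k ty = tab ty g := by simp [tabF, hg1, hg2]
          rw [this]
          exact norm_rowVal_fam_low n h tF tT _ i ty hty g k hvx
        · subst hty
          rw [fam_six]; exact le_rfl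
        · subst hty
          rw [fam_seven]; exact le_rfl

/-- the inequality of the kinds for the family columns -/
theorem kind_ineq (H s i k : ℕ) (hs : 1 ≤ s) (g : Gp) (ty : Fin 8) (hty : (ty : ℕ) < 6)
    (hk : tabF H g k ty ≠ .no) :
    (s : ℝ) * ke (tabF H g k ty) ((i : ℝ) / s)
      ≤ (s : ℝ) * (rowF ty).ev ((i : ℝ) / s) + colPot colF s (g, k) := by
  have hs0 : (0 : ℝ) < s := by exact_mod_cast hs
  unfold colPot
  rw [← mul_add]
  refine mul_le_mul_of_nonneg_left ?_ hs0.le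
  by_cases hg1 : g = .wf7
  · subst hg1
    have e : tabF H .wf7 k ty = tabd ty := by simp [tabF]
    rw [e] at hk ⊢
    have h5 : ty = 5 := by
      by_contra hne
      apply hk
      fin_cases ty <;> first | rfl | exact absurd rfl hne
    subst h5
    exact poly_ineqd _ _
  · by_cases hg2 : g = .wy ∧ k < H
    · obtain ⟨rfl, hkH⟩ := hg2
      have e : tabF H .wy k ty = tab6 ty := by simp [tabF, hkH]
      rw [e] at hk ⊢
      have h4 : ty = 4 := by
        by_contra hne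
        apply hk
        fin_cases ty <;> first | rfl | exact absurd rfl hne
      subst h4
      exact poly_ineq6 _ _
    · have e : tabF H g k ty = tab ty g := by simp [tabF, hg1, hg2]
      rw [e] at hk ⊢
      exact poly_ineq ty hty g hk _ _ hg1

theorem norm_half_pow (N : ℕ) : ‖((1 / 2 : ℚ_[2]) ^ N)‖ = (2 : ℝ) ^ (N : ℝ) := by
  have h : ‖(2 : ℚ_[2])‖ = (2 : ℝ)⁻¹ := by
    have := Padic.norm_p (p := 2)
    simpa using this
  rw [norm_pow, norm_div, norm_one, h, Real.rpow_natCast]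
  norm_num

theorem ht_le (g : Gp) : parA.ht g ≤ 32 := by
  cases g <;> decide

/-- **the 2-adic input of the frozen design, from the K-rows**: `3486.25 s² log 2` -/
theorem stTW_F {c0 : ℕ} (hK : KRowIn c0) : StTW parA c0 (13945 / 4 * Real.log 2) := by
  have key := stTW_of_entries_w (P := parA) (c0 := c0) rfl rfl (by decide) parA_card (-273)
    rowF colF rowF_ok colF_ok (fun x η hη => ?_)
  · rw [totF] at key
    norm_num at key ⊢
    exact key
  obtain ⟨C, m, hC, hK'⟩ := hK x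
  obtain ⟨s1, h1⟩ := poly_le (8 * C) m hη
  obtain ⟨s2, h2⟩ := poly_le (4 * 27 ^ 2 * 33 ^ 3) 5 hη
  refine ⟨s1 + s2 + c0 + 1, fun s hs => ?_⟩
  have hs1 : 1 ≤ s := by omega
  have hc0 : c0 ≤ s := by omega
  have hn : (27 * s - 1) + 1 = 27 * s := by omega
  obtain ⟨n, hn'⟩ : ∃ n, n = 27 * s - 1 := ⟨_, rfl⟩
  rw [← hn'] at hn
  have hD : parA.D0 * s = n + 1 := hn.symm
  obtain ⟨tF, tT, hE⟩ := hK' s hs1 n hn
  obtain ⟨U, hdet, hU⟩ := exists_UF hD (fun i : Fin (n + 1) => hF s i) tF tT x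
    (parA.ht .wf7 * s + c0)
  have hs0 : (0 : ℝ) < s := by exact_mod_cast hs1
  have hP1 : 8 * C * ((s : ℝ) + 1) ^ m ≤ (2 : ℝ) ^ (η * s) := h1 s (by omega)
  have hP2 : 4 * 27 ^ 2 * 33 ^ 3 * ((s : ℝ) + 1) ^ 5 ≤ (2 : ℝ) ^ (η * s) := h2 s (by omega)
  refine ⟨U, ?_, fun c hc r => ?_⟩
  · rw [hdet]
    have e1 : (Matrix.of fun i a : Fin (n + 1) => (hF s i).coeff a).det
        = (1 / 2 : ℚ_[2]) ^ (nA s * nB s + nB s * nC s) :=
      H721.det_hm_special (nA s) (nB s) (nC s) (n + 1) (by rw [hn]; exact n_le s) two_ne_zero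
    rw [e1, ← norm_pow, ← pow_mul, norm_half_pow]
    refine Real.rpow_le_rpow_of_exponent_le one_le_two ?_
    have hB := nB_cases s
    have hBr : 21 * (s : ℝ) ≤ 2 * nB s := by
      exact_mod_cast (show 21 * s ≤ 2 * nB s by omega)
    unfold nA nC
    push_cast
    nlinarith [mul_le_mul_of_nonneg_left hBr hs0.le, sq_nonneg (s : ℝ)]
  · obtain ⟨g, k⟩ := c
    obtain ⟨i, ty⟩ := r
    have hk : k < parA.ht g * s + c0 := hc
    have hk33 : k + 1 ≤ 33 * s := by
      have := Nat.mul_le_mul_right s (ht_le g)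
      omega
    have hvx : g = .vb ∨ g = .x1 → k ≤ n := by
      rintro (rfl | rfl)
      · have : k < 4 * s + c0 := hk
        omega
      · have : k < 4 * s + c0 := hk
        omega
    obtain ⟨u1, u2, u3⟩ := hU i ty g k
    have hin : (i : ℕ) ≤ n := by
      have := i.2
      omega
    have hk6 : kb s i k g ≤ (2 : ℝ) ^ ((s : ℝ) * rowK.ev (((i : ℕ) : ℝ) / s)
        + colPot colF s (g, k) + 3) := kb_le c0 s i k hs1 hc0 g hk
    have hfin : C * ((s : ℝ) + 1) ^ m * kb s i k g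
        ≤ (2 : ℝ) ^ ((s : ℝ) * rowK.ev (((i : ℕ) : ℝ) / s) + colPot colF s (g, k) + η * s) := by
      have hCs : 0 ≤ C * ((s : ℝ) + 1) ^ m := by positivity
      refine (mul_le_mul_of_nonneg_left hk6 hCs).trans ?_
      rw [Real.rpow_add two_pos _ 3, Real.rpow_add two_pos _ (η * s)]
      have e8 : (2 : ℝ) ^ (3 : ℝ) = 8 := by norm_num
      rw [e8]
      have hpos : (0 : ℝ) < (2 : ℝ) ^ ((s : ℝ) * rowK.ev (((i : ℕ) : ℝ) / s)
        + colPot colF s (g, k)) := Real.rpow_pos_of_pos two_pos _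
      have := mul_le_mul_of_nonneg_left hP1 hpos.le
      linarith
    by_cases h6 : ty = 6
    · subst h6
      exact (u2 rfl).trans (((hE (Fin.cast hD i) g k hk).1).trans hfin)
    · by_cases h7 : ty = 7
      · subst h7
        exact (u3 rfl).trans (((hE (Fin.cast hD i) g k hk).2).trans hfin)
      · have hty : (ty : ℕ) < 6 := by
          have := ty.2
          have a6 : (ty : ℕ) ≠ 6 := fun h => h6 (Fin.ext h)
          have a7 : (ty : ℕ) ≠ 7 := fun h => h7 (Fin.ext h)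
          omega
        refine (u1 hty hvx).trans (poly_pot hn hs1 hin _ (fun hne => kind_ineq _ s i k hs1 g ty hty
          hne) ?_)
        refine le_trans ?_ hP2
        unfold cst
        have a1 : (n : ℝ) + 1 = 27 * s := by exact_mod_cast hn
        have a2 : (k : ℝ) + 1 ≤ 33 * s := by exact_mod_cast hk33
        have a3 : ((k : ℝ) + 1) ^ 3 ≤ (33 * s) ^ 3 := pow_le_pow_left₀ (by positivity) a2 3
        have a4 : (s : ℝ) ^ 5 ≤ ((s : ℝ) + 1) ^ 5 := pow_le_pow_left₀ hs0.le (by linarith) 5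
        rw [a1]
        have a5 : 2 * (2 * (27 * (s : ℝ)) ^ 2 * ((k : ℝ) + 1) ^ 3)
            ≤ 2 * (2 * (27 * (s : ℝ)) ^ 2 * (33 * s) ^ 3) := by
          have : (0 : ℝ) ≤ 2 * (27 * (s : ℝ)) ^ 2 := by positivity
          nlinarith [mul_le_mul_of_nonneg_left a3 this]
        refine a5.trans ?_
        have a6 : 2 * (2 * (27 * (s : ℝ)) ^ 2 * (33 * s) ^ 3) = 4 * 27 ^ 2 * 33 ^ 3 * (s : ℝ) ^ 5 := by
          ring
        rw [a6]
        exact mul_le_mul_of_nonneg_left a4 (by norm_num)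

end Vale.Agent.P030.H579
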