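import Vale.Agent.P030.H579.DesA
import Vale.Agent.P030.H486.Wd
import Vale.Agent.P030.H721.Circ

/-!
# P030, the frozen design: 2-adic potentials and the pointwise inequalities

The two Hermite lines are in the monic normal form (`S - 1/2`), the row change contributes
`- 2 (n0 n1 + n1 n2) = -273`; the column `wf7` is replaced by `P_7 - P_6` (potential `32`).
Total `13945/4 = 3486.25`.
-/

open Finset

namespace Vale.Agent.P030.H579

open Vale.Agent.P030.T Vale.Agent.P030.H486

/-- the Hermite line -/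
def rowK : PL :=
  .cons 11 (21 / 2) (-2) (.cons (43 / 2) 10 (-1) (.cons (47 / 2) (71 / 2) (-2) (.last (-82) 3)))

/-- row potentials, lines `1, l+L, L, D', 6', g`, Hermite, Hermite -/
def rowF : Fin 8 → PL := ![
  .cons 13 (-27) 0 (.last (-40) 1),
  .cons 22 (-18) 0 (.last (-40) 1),
  .cons 5 (-27) 0 (.last (-32) 1),
  .cons 16 (-24) 0 (.last (-40) 1),
  .last (-40) 1,
  .cons 14 (-18) 0 (.last (-32) 1),
  rowK, rowK]

/-- column potentials -/
def colF : Gp → PL
  | .z1 => .cons (27 / 2) 27 0 (.last 0 2)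
  | .zl => .last 18 0
  | .z8 => .last 0 2
  | .zab => .last 24 0
  | .w1 => .last 40 0
  | .wl => .last 32 0
  | .wy => .cons 13 40 0 (.last 14 2)
  | .w8 => .last 14 2
  | .wab => .last 40 0
  | .wf7 => .last 32 0
  | .v2 => .last 24 0
  | .vl => .last 18 0
  | .v8 => .last 18 2
  | .vb => .last 27 0
  | .x2 => .cons 6 40 0 (.last 28 2)
  | .xl => .cons 2 32 0 (.last 28 2)
  | .x1 => .last 40 0

theorem rowF_ok : ∀ j, (rowF j).ok 0 parA.D0 := by
  intro j
  fin_cases j <;> simp [rowF, rowK, PL.ok, parA] <;> norm_num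

theorem colF_ok : ∀ g, (colF g).ok 0 (parA.ht g) := by
  intro g
  cases g <;> simp [colF, PL.ok, parA] <;> norm_num

theorem totF : tot parA (-273) rowF colF = 13945 / 4 := by
  unfold tot
  rw [sum_Gp, Fin.sum_univ_eight]
  simp [rowF, rowK, colF, PL.area, parA]
  norm_num

/-! ### the six polylogarithmic lines -/

/-- exponents of the kinds, in units of `s` -/
def ke : Kd → ℝ → ℝ
  | .no, _ => 0
  | .one, _ => 0
  | .low, _ => 0
  | .up, x => x
  | .top, x => x
  | .down, x => x - 27

theorem poly_ineq (ty : Fin 8) (hty : (ty : ℕ) < 6) (gr : Gp) (hk : tab ty gr ≠ .no) (x y : ℝ)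
    (hwf : gr ≠ .wf7) :
    ke (tab ty gr) x ≤ (rowF ty).ev x + (colF gr).ev y := by
  fin_cases ty
  all_goals first
    | (exfalso; revert hty; norm_num; done)
    | (cases gr <;> first
        | (exfalso; exact hk rfl)
        | (exfalso; exact hwf rfl)
        | (simp [tab, ke, rowF, colF, PL.ev]; split_ifs <;> linarith)
        | (simp [tab, ke, rowF, colF, PL.ev]; linarith)
        | simp [tab, ke, rowF, colF, PL.ev])

theorem poly_ineq6 (y : ℝ) (x : ℝ) : x ≤ (rowF 4).ev x + (colF .wy).ev y := by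
  simp [rowF, colF, PL.ev]
  split_ifs <;> linarith

theorem poly_ineqd (y : ℝ) (x : ℝ) : x ≤ (rowF 5).ev x + (colF .wf7).ev y := by
  simp [rowF, colF, PL.ev]
  split_ifs <;> linarith

/-! ### the Hermite lines -/

/-- the Hermite numbers of the frozen design -/
def nA (s : ℕ) : ℕ := 11 * s
def nB (s : ℕ) : ℕ := (21 * s + 1) / 2
def nC (s : ℕ) : ℕ := 2 * s

theorem nB_cases (s : ℕ) : 2 * nB s = 21 * s ∨ 2 * nB s = 21 * s + 1 := by
  unfold nB; omega

theorem n_le (s : ℕ) : nA s + nB s + nC s ≤ 27 * s := by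
  unfold nA nB nC; omega

/-- `κ_c` of the circles -/
def kap4 : Fin 4 → ℝ := ![0, 14, 18, 28]

theorem apot_le (s i : ℕ) (hs : 1 ≤ s) :
    ((H721.Apot (nA s) (nB s) (nC s) i : ℤ) : ℝ) ≤ s * rowK.ev ((i : ℝ) / s) + 23 / 2 * s + 1 := by
  have hs0 : (0 : ℝ) < s := by exact_mod_cast hs
  have hB := nB_cases s
  have hBr : (nB s : ℝ) ≤ 21 / 2 * s + 1 / 2 := by
    have : ((2 * nB s : ℕ) : ℝ) ≤ ((21 * s + 1 : ℕ) : ℝ) := by
      exact_mod_cast (show 2 * nB s ≤ 21 * s + 1 by omega)
    push_cast at this; linarith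
  have hBr' : 21 / 2 * (s : ℝ) ≤ nB s := by
    have : ((21 * s : ℕ) : ℝ) ≤ ((2 * nB s : ℕ) : ℝ) := by
      exact_mod_cast (show 21 * s ≤ 2 * nB s by omega)
    push_cast at this; linarith
  have e : ∀ a b : ℝ, (s : ℝ) * (a + b * ((i : ℝ) / s)) = a * s + b * i := fun a b => by
    field_simp
  have c1 : ((i : ℝ) / s < ((11 : ℚ) : ℝ)) ↔ i < 11 * s := by
    rw [div_lt_iff₀ hs0]; push_cast; exact_mod_cast Iff.rfl
  have c2 : ((i : ℝ) / s < ((43 / 2 : ℚ) : ℝ)) ↔ 2 * i < 43 * s := by
    rw [div_lt_iff₀ hs0]; push_cast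
    constructor
    · intro h; have : (2 : ℝ) * i < 43 * s := by linarith
      exact_mod_cast this
    · intro h; have : (2 : ℝ) * i < 43 * s := by exact_mod_cast h
      linarith
  have c3 : ((i : ℝ) / s < ((47 / 2 : ℚ) : ℝ)) ↔ 2 * i < 47 * s := by
    rw [div_lt_iff₀ hs0]; push_cast
    constructor
    · intro h; have : (2 : ℝ) * i < 47 * s := by linarith
      exact_mod_cast this
    · intro h; have : (2 : ℝ) * i < 47 * s := by exact_mod_cast h
      linarith
  unfold H721.Apot rowK
  simp only [PL.ev, c1, c2, c3]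
  by_cases h1 : i < 11 * s
  · rw [if_pos h1, if_pos (show i < nA s from h1), e]
    unfold nA
    push_cast
    linarith
  · rw [if_neg h1, if_neg (show ¬ i < nA s from h1)]
    have hi1 : 11 * s ≤ i := not_lt.1 h1
    by_cases h2 : 2 * i < 43 * s
    · have h2' : i - nA s < nB s := by unfold nA; omega
      rw [if_pos h2, if_pos h2', e]
      have : ((i - nA s : ℕ) : ℝ) = (i : ℝ) - 11 * s := by
        unfold nA; rw [Nat.cast_sub hi1]; push_cast; ring
      push_cast
      rw [this]
      linarith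
    · have h2' : ¬ i - nA s < nB s := by unfold nA; omega
      rw [if_neg h2, if_neg h2']
      have hi2 : nA s + nB s ≤ i := by unfold nA; omega
      have hcast : ((i - nA s - nB s : ℕ) : ℝ) = (i : ℝ) - 11 * s - nB s := by
        rw [Nat.sub_sub, Nat.cast_sub hi2]; unfold nA; push_cast; ring
      by_cases h3 : 2 * i < 47 * s
      · have h3' : i - nA s - nB s < nC s := by unfold nA nC; omega
        rw [if_pos h3, if_pos h3', e]
        push_cast
        rw [hcast]
        unfold nC
        push_cast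
        linarith
      · have h3' : ¬ i - nA s - nB s < nC s := by unfold nA nC; omega
        rw [if_neg h3, if_neg h3', e]
        push_cast
        rw [hcast]
        unfold nC
        push_cast
        linarith

theorem wc_le (s : ℕ) (c : Fin 4) :
    ((H721.Wc (nA s) (nB s) (nC s) c : ℤ) : ℝ) - (if c = 3 then 54 * (s : ℝ) else 0)
      ≤ kap4 c * s - 23 / 2 * s + 2 := by
  have hB := nB_cases s
  have hBr : (nB s : ℝ) ≤ 21 / 2 * s + 1 / 2 := by
    have : ((2 * nB s : ℕ) : ℝ) ≤ ((21 * s + 1 : ℕ) : ℝ) := by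
      exact_mod_cast (show 2 * nB s ≤ 21 * s + 1 by omega)
    push_cast at this; linarith
  have hBr' : 21 / 2 * (s : ℝ) ≤ nB s := by
    have : ((21 * s : ℕ) : ℝ) ≤ ((2 * nB s : ℕ) : ℝ) := by
      exact_mod_cast (show 21 * s ≤ 2 * nB s by omega)
    push_cast at this; linarith
  fin_cases c
  · simp [H721.Wc, kap4, nA]; linarith
  · simp [H721.Wc, kap4, nA, nC]; linarith
  · simp [H721.Wc, kap4, nC]; linarith
  · simp [H721.Wc, kap4, nA, nC]; linarith

end Vale.Agent.P030.H579
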