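import Mathlib

/-!
# Block Laplace expansion as an ultrametric inequality (P030, the 2-adic place)

Rows `R1 ⊕ R2`, columns indexed by any type `κ` through a bijection (or injective map) `σ`.
`det M` is, up to signs, the sum over the splittings of the columns of the products of the two
complementary minors.  Over an ultrametric field `‖det M‖` is at most the largest such product.
-/

namespace Vale.Agent.P030.H579

open Finset Matrix

section Alg

variable {n R : Type*} [Fintype n] [DecidableEq n] [CommRing R]

/-- the matrix whose columns in `J` are cut to the rows `p`, the other columns to the rows `¬ p` -/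
def cut (M : Matrix n n R) (p : n → Prop) [DecidablePred p] (J : Finset n) : Matrix n n R :=
  Matrix.of fun i j => if j ∈ J then (if p i then M i j else 0) else (if p i then 0 else M i j)

/-- expansion along the splittings of the columns -/
theorem det_eq_sum_cut (M : Matrix n n R) (p : n → Prop) [DecidablePred p] :
    M.det = ∑ J : Finset n, (cut M p J).det := by
  classical
  have h0 := (detRowAlternating (n := n) (R := R)).toMultilinearMap.map_add_univ
    (fun (j : n) (i : n) => if p i then M i j else 0)
    (fun (j : n) (i : n) => if p i then 0 else M i j)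
  have h1 : detRowAlternating ((fun (j : n) (i : n) => if p i then M i j else 0)
      + (fun (j : n) (i : n) => if p i then 0 else M i j)) = M.det := by
    have : ((fun (j : n) (i : n) => if p i then M i j else 0)
      + (fun (j : n) (i : n) => if p i then 0 else M i j)) = fun j i => Mᵀ j i := by
      funext j i
      simp only [Pi.add_apply, Matrix.transpose_apply]
      split_ifs <;> simp
    rw [this]
    exact det_transpose M
  rw [← h1]
  refine h0.trans (Finset.sum_congr rfl fun J _ => ?_)
  have h2 : (cut M p J).det = (cut M p J)ᵀ.det := (det_transpose _).symm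
  rw [h2]
  change detRowAlternating _ = detRowAlternating _
  congr 1
  funext j i
  by_cases hj : j ∈ J
  · simp [cut, Matrix.transpose_apply, hj]
  · simp [cut, Matrix.transpose_apply, hj]

/-- a splitting of the wrong size contributes zero -/
theorem det_cut_eq_zero (M : Matrix n n R) (p : n → Prop) [DecidablePred p] (J : Finset n)
    (h : J.card ≠ (univ.filter p).card) : (cut M p J).det = 0 := by
  classical
  rw [Matrix.det_apply]
  refine Finset.sum_eq_zero fun σ _ => ?_
  -- some column `j` is sent to a row of the wrong side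
  have : ∃ j, ¬ (p (σ j) ↔ j ∈ J) := by
    by_contra hne
    push Not at hne
    apply h
    have : J = (univ.filter p).map σ.symm.toEmbedding := by
      ext j
      simp only [mem_map, mem_filter, mem_univ, true_and, Equiv.coe_toEmbedding]
      constructor
      · intro hj
        exact ⟨σ j, (hne j).2 hj, by simp⟩
      · rintro ⟨i, hi, rfl⟩
        exact (hne _).1 (by simpa using hi)
    rw [this, card_map]
  obtain ⟨j, hj⟩ := this
  have h0 : cut M p J (σ j) j = 0 := by
    simp only [cut, Matrix.of_apply]
    by_cases h1 : j ∈ J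
    · have h2 : ¬ p (σ j) := fun h3 => hj ⟨fun _ => h1, fun _ => h3⟩
      rw [if_pos h1, if_neg h2]
    · have h2 : p (σ j) := by
        by_contra h3
        exact hj ⟨fun h4 => absurd h4 h3, fun h4 => absurd h4 h1⟩
      rw [if_neg h1, if_pos h2]
  have h5 : ∏ i, cut M p J (σ i) i = 0 := Finset.prod_eq_zero (mem_univ j) h0
  simp only [h5, smul_zero]

/-- a splitting of the right size: choose a permutation of the columns which carries the rows
`p` to `J`; the determinant is a product of two minors up to sign. -/
theorem det_cut_eq (M : Matrix n n R) (p : n → Prop) [DecidablePred p] (J : Finset n)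
    (e : Equiv.Perm n) (he : ∀ i, p i ↔ e i ∈ J) :
    (cut M p J).det = (Equiv.Perm.sign e : ℤ) *
      ((toSquareBlockProp (M.submatrix id e) p).det
        * (toSquareBlockProp (M.submatrix id e) fun i => ¬ p i).det) := by
  classical
  have h1 : ((cut M p J).submatrix id e).det
      = (Equiv.Perm.sign e : ℤ) * (cut M p J).det := Matrix.det_permute' e _
  have h2 : ((cut M p J).submatrix id e).det
      = (toSquareBlockProp (M.submatrix id e) p).det
        * (toSquareBlockProp (M.submatrix id e) fun i => ¬ p i).det := by
    rw [Matrix.twoBlockTriangular_det _ p]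
    · congr 1
      · congr 1
        ext i j
        have hj := (he j.1).1 j.2
        simp [toSquareBlockProp, cut, hj, i.2]
      · congr 1
        ext i j
        have hj : e j.1 ∉ J := fun h => j.2 ((he j.1).2 h)
        simp [toSquareBlockProp, cut, hj, i.2]
    · intro i hi j hj
      have := (he j).1 hj
      simp [cut, this, hi]
  have h3 : ((Equiv.Perm.sign e : ℤ) : R) * ((Equiv.Perm.sign e : ℤ) : R) = 1 := by
    rcases Int.units_eq_one_or (Equiv.Perm.sign e) with h | h <;> rw [h] <;> simp
  calc (cut M p J).det = ((Equiv.Perm.sign e : ℤ) : R) * (((Equiv.Perm.sign e : ℤ) : R)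
        * (cut M p J).det) := by rw [← mul_assoc, h3, one_mul]
    _ = _ := by rw [← h1, h2]

theorem exists_perm (p : n → Prop) [DecidablePred p] (J : Finset n)
    (h : J.card = (univ.filter p).card) : ∃ e : Equiv.Perm n, ∀ i, p i ↔ e i ∈ J := by
  classical
  have h1 : Fintype.card {i // p i} = Fintype.card {i // i ∈ J} := by
    rw [Fintype.card_subtype, Fintype.card_coe, h]
  have h2 : Fintype.card {i // ¬ p i} = Fintype.card {i // ¬ i ∈ J} := by
    rw [Fintype.card_subtype_compl, Fintype.card_subtype_compl, h1]
  let e1 : {i // p i} ≃ {i // i ∈ J} := Fintype.equivOfCardEq h1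
  let e2 : {i // ¬ p i} ≃ {i // ¬ i ∈ J} := Fintype.equivOfCardEq h2
  refine ⟨Equiv.subtypeCongr e1 e2, fun i => ?_⟩
  by_cases hi : p i
  · have : (Equiv.subtypeCongr e1 e2) i = e1 ⟨i, hi⟩ := by
      simp [Equiv.subtypeCongr, hi]
    rw [this]
    exact ⟨fun _ => (e1 ⟨i, hi⟩).2, fun _ => hi⟩
  · have : (Equiv.subtypeCongr e1 e2) i = e2 ⟨i, hi⟩ := by
      simp [Equiv.subtypeCongr, hi]
    rw [this]
    exact ⟨fun h => absurd h hi, fun h => absurd h (e2 ⟨i, hi⟩).2⟩

end Alg

section Norm

variable {K : Type*} [NormedField K] [IsUltrametricDist K]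
variable {n : Type*} [Fintype n] [DecidableEq n]

/-- **block Laplace inequality**, permutation form -/
theorem det_norm_le_perm (M : Matrix n n K) (p : n → Prop) [DecidablePred p] {C : ℝ}
    (hC : 0 ≤ C)
    (h : ∀ e : Equiv.Perm n, ‖(toSquareBlockProp (M.submatrix id e) p).det‖
        * ‖(toSquareBlockProp (M.submatrix id e) fun i => ¬ p i).det‖ ≤ C) :
    ‖M.det‖ ≤ C := by
  classical
  rw [det_eq_sum_cut M p]
  refine IsUltrametricDist.norm_sum_le_of_forall_le_of_nonneg hC fun J _ => ?_
  by_cases hJ : J.card = (univ.filter p).card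
  · obtain ⟨e, he⟩ := exists_perm p J hJ
    rw [det_cut_eq M p J e he]
    have hs : ‖(((Equiv.Perm.sign e : ℤˣ) : ℤ) : K)‖ = 1 := by
      rcases Int.units_eq_one_or (Equiv.Perm.sign e) with h | h <;> rw [h] <;> simp
    rw [norm_mul, hs, one_mul, norm_mul]
    exact h e
  · rw [det_cut_eq_zero M p J hJ, norm_zero]
    exact hC

variable {R1 R2 κ : Type*} [Fintype R1] [DecidableEq R1] [Fintype R2] [DecidableEq R2]

/-- **block Laplace inequality**: rows `R1 ⊕ R2`, columns `σ`, any column type `κ` -/
theorem det_norm_le_laplace (A : Matrix (R1 ⊕ R2) κ K) (σ : R1 ⊕ R2 → κ) {C : ℝ} (hC : 0 ≤ C)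
    (h : ∀ (f1 : R1 → κ) (f2 : R2 → κ),
      (∃ e : Equiv.Perm (R1 ⊕ R2), Sum.elim f1 f2 = σ ∘ e) →
      ‖(Matrix.of fun i j => A (Sum.inl i) (f1 j)).det‖
        * ‖(Matrix.of fun i j => A (Sum.inr i) (f2 j)).det‖ ≤ C) :
    ‖(A.submatrix id σ).det‖ ≤ C := by
  classical
  refine det_norm_le_perm _ (fun i => i.isLeft = true) hC fun e => ?_
  have h1 := h (fun j => σ (e (Sum.inl j))) (fun j => σ (e (Sum.inr j)))
    ⟨e, by funext i; rcases i with i | i <;> rfl⟩
  have e1 : (toSquareBlockProp ((A.submatrix id σ).submatrix id e) fun i => i.isLeft = true).det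
      = (Matrix.of fun i j => A (Sum.inl i) (σ (e (Sum.inl j)))).det := by
    let f : R1 ≃ {i : R1 ⊕ R2 // i.isLeft = true} :=
      { toFun := fun a => ⟨Sum.inl a, rfl⟩
        invFun := fun a => (a.1.getLeft a.2)
        left_inv := fun a => rfl
        right_inv := by rintro ⟨a | a, ha⟩ <;> simp at ha ⊢ }
    rw [← Matrix.det_submatrix_equiv_self f]
    rfl
  have e2 : (toSquareBlockProp ((A.submatrix id σ).submatrix id e)
      fun i => ¬ i.isLeft = true).det
      = (Matrix.of fun i j => A (Sum.inr i) (σ (e (Sum.inr j)))).det := by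
    let f : R2 ≃ {i : R1 ⊕ R2 // ¬ i.isLeft = true} :=
      { toFun := fun a => ⟨Sum.inr a, by simp⟩
        invFun := fun a => (a.1.getRight (by rcases a with ⟨a | a, ha⟩ <;> simp at ha ⊢))
        left_inv := fun a => rfl
        right_inv := by rintro ⟨a | a, ha⟩ <;> simp at ha ⊢ }
    rw [← Matrix.det_submatrix_equiv_self f]
    rfl
  rw [e1, e2]
  exact h1

end Norm

end Vale.Agent.P030.H579
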