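import Mathlib

/-!
# Piecewise linear functions with rational data and their Riemann sums

`PL.ev l x` is the value at `x`; the pieces are given from left to right by their right ends, the
last piece extends to `∞`; jumps are allowed.  `PL.area l t H` is the integral from `t` to `H`, a
rational number computed by recursion.
-/

namespace Vale.Agent.P030.H579

open Finset

/-- piecewise linear functions: `cons e c0 c1 l` is `c0 + c1 x` for `x < e` and `l` afterwards -/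
inductive PL
  | last (c0 c1 : ℚ)
  | cons (e c0 c1 : ℚ) (l : PL)

/-- value -/
noncomputable def PL.ev : PL → ℝ → ℝ
  | .last c0 c1, x => c0 + c1 * x
  | .cons e c0 c1 l, x => if x < e then c0 + c1 * x else l.ev x

/-- integral from `t` to `H` -/
def PL.area : PL → ℚ → ℚ → ℚ
  | .last c0 c1, t, H => c0 * (H - t) + c1 * (H ^ 2 - t ^ 2) / 2
  | .cons e c0 c1 l, t, H => c0 * (e - t) + c1 * (e ^ 2 - t ^ 2) / 2 + l.area e H

/-- the break points increase from `t` to `H` -/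
def PL.ok : PL → ℚ → ℚ → Prop
  | .last _ _, t, H => t ≤ H
  | .cons e _ _ l, t, H => t ≤ e ∧ l.ok e H

theorem PL.ok_le : ∀ (l : PL) (t H : ℚ), l.ok t H → t ≤ H
  | .last _ _, _, _, h => h
  | .cons _ _ _ l, _, _, h => h.1.trans (PL.ok_le l _ _ h.2)

theorem PL.ev_bdd (R : ℝ) : ∀ l : PL, ∃ M : ℝ, 0 ≤ M ∧ ∀ x : ℝ, 0 ≤ x → x ≤ R → |l.ev x| ≤ M
  | .last c0 c1 => by
    refine ⟨|(c0 : ℝ)| + |(c1 : ℝ)| * |R|, by positivity, fun x h0 hR => ?_⟩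
    refine (abs_add_le _ _).trans (add_le_add le_rfl ?_)
    rw [abs_mul]
    refine mul_le_mul_of_nonneg_left ?_ (abs_nonneg _)
    rw [abs_of_nonneg h0]
    exact hR.trans (le_abs_self R)
  | .cons e c0 c1 l => by
    obtain ⟨M, hM0, hM⟩ := PL.ev_bdd R l
    refine ⟨|(c0 : ℝ)| + |(c1 : ℝ)| * |R| + M, by positivity, fun x h0 hR => ?_⟩
    have h1 : |(c0 : ℝ) + c1 * x| ≤ |(c0 : ℝ)| + |(c1 : ℝ)| * |R| := by
      refine (abs_add_le _ _).trans (add_le_add le_rfl ?_)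
      rw [abs_mul]
      refine mul_le_mul_of_nonneg_left ?_ (abs_nonneg _)
      rw [abs_of_nonneg h0]
      exact hR.trans (le_abs_self R)
    have h2 := hM x h0 hR
    have h3 : 0 ≤ |(c0 : ℝ)| + |(c1 : ℝ)| * |R| := by positivity
    change |if x < (e : ℝ) then (c0 : ℝ) + c1 * x else l.ev x| ≤ _
    split_ifs
    · linarith
    · linarith

/-- sum over one linear piece -/
theorem sum_lin (c0 c1 t e : ℝ) (ht : 0 ≤ t) (hte : t ≤ e) (s a b : ℕ) (hs : 1 ≤ s) (hab : a ≤ b)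
    (ha0 : t * s ≤ a) (ha1 : (a : ℝ) ≤ t * s + 1) (hb0 : e * s ≤ b) (hb1 : (b : ℝ) ≤ e * s + 1) :
    |∑ k ∈ Ico a b, (s : ℝ) * (c0 + c1 * ((k : ℝ) / s))
      - (s : ℝ) ^ 2 * (c0 * (e - t) + c1 * (e ^ 2 - t ^ 2) / 2)|
      ≤ (2 * |c0| + |c1| * (3 * e + 2)) * s := by
  have hs0 : (0 : ℝ) < s := by exact_mod_cast hs
  have hs1 : (1 : ℝ) ≤ s := by exact_mod_cast hs
  have h1 : ∀ n : ℕ, ∑ k ∈ range n, (k : ℝ) = (n : ℝ) * (n - 1) / 2 := by
    intro n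
    induction n with
    | zero => simp
    | succ n ih => rw [sum_range_succ, ih]; push_cast; ring
  have h2 : ∑ k ∈ Ico a b, (s : ℝ) * (c0 + c1 * ((k : ℝ) / s))
      = s * c0 * ((b : ℝ) - a) + c1 * (((b : ℝ) * (b - 1) - a * (a - 1)) / 2) := by
    have h3 : ∑ k ∈ Ico a b, (s : ℝ) * (c0 + c1 * ((k : ℝ) / s))
        = ∑ k ∈ Ico a b, ((s : ℝ) * c0 + c1 * (k : ℝ)) :=
      sum_congr rfl fun k _ => by field_simp
    have h4 : ∑ k ∈ Ico a b, c1 * (k : ℝ) = c1 * (((b : ℝ) * (b - 1) - a * (a - 1)) / 2) := by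
      rw [← mul_sum, Finset.sum_Ico_eq_sub _ hab, h1, h1]
      ring
    rw [h3, sum_add_distrib, h4, sum_const, Nat.card_Ico, nsmul_eq_mul, Nat.cast_sub hab]
    ring
  rw [h2]
  set α := (a : ℝ) - t * s with hα
  set β := (b : ℝ) - e * s with hβ
  have ea : (a : ℝ) = t * s + α := by rw [hα]; ring
  have eb : (b : ℝ) = e * s + β := by rw [hβ]; ring
  have hα0 : 0 ≤ α := by rw [hα]; linarith
  have hα1 : α ≤ 1 := by rw [hα]; linarith
  have hβ0 : 0 ≤ β := by rw [hβ]; linarith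
  have hβ1 : β ≤ 1 := by rw [hβ]; linarith
  have he : 0 ≤ e := ht.trans hte
  have e1 : s * c0 * ((b : ℝ) - a) + c1 * (((b : ℝ) * (b - 1) - a * (a - 1)) / 2)
      - (s : ℝ) ^ 2 * (c0 * (e - t) + c1 * (e ^ 2 - t ^ 2) / 2)
      = s * c0 * (β - α) + c1 * ((2 * e * s * β + β ^ 2 - 2 * t * s * α - α ^ 2
        - (e * s + β) + (t * s + α)) / 2) := by
    rw [ea, eb]; ring
  rw [e1]
  refine (abs_add_le _ _).trans ?_
  have h4 : |(s : ℝ) * c0 * (β - α)| ≤ s * |c0| := by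
    rw [abs_mul, abs_mul, abs_of_pos hs0]
    calc (s : ℝ) * |c0| * |β - α| ≤ s * |c0| * 1 := by
          refine mul_le_mul_of_nonneg_left (abs_le.2 ⟨by linarith, by linarith⟩) (by positivity)
      _ = _ := by ring
  have hes : 0 ≤ e * s := by positivity
  have hts : 0 ≤ t * s := by positivity
  have hets : t * s ≤ e * s := mul_le_mul_of_nonneg_right hte hs0.le
  have h5 : |(2 * e * s * β + β ^ 2 - 2 * t * s * α - α ^ 2 - (e * s + β) + (t * s + α)) / 2|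
      ≤ 3 * e * s + 2 := by
    have p1 : 0 ≤ e * s * β := by positivity
    have p2 : e * s * β ≤ e * s := by nlinarith
    have p3 : 0 ≤ t * s * α := by positivity
    have p4 : t * s * α ≤ t * s := by nlinarith
    have p5 : β ^ 2 ≤ 1 := by nlinarith
    have p6 : α ^ 2 ≤ 1 := by nlinarith
    have p7 : 0 ≤ β ^ 2 := by positivity
    have p8 : 0 ≤ α ^ 2 := by positivity
    rw [abs_le]
    constructor <;> linarith
  rw [abs_mul c1]
  have h6 : |c1| * |(2 * e * s * β + β ^ 2 - 2 * t * s * α - α ^ 2 - (e * s + β)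
      + (t * s + α)) / 2| ≤ |c1| * ((3 * e + 2) * s) := by
    refine mul_le_mul_of_nonneg_left (h5.trans ?_) (abs_nonneg _)
    linarith
  have h7 : 0 ≤ |c0| * s := by positivity
  have h8 : (2 * |c0| + |c1| * (3 * e + 2)) * s = |c0| * s + s * |c0| + |c1| * ((3 * e + 2) * s) := by
    ring
  rw [h8]
  linarith

/-- **Riemann sums** -/
theorem PL.sum_ev : ∀ (l : PL) (t H : ℚ), 0 ≤ t → l.ok t H → ∃ C : ℝ, 0 ≤ C ∧
    ∀ s : ℕ, 1 ≤ s → ∀ n : ℕ, (n : ℝ) = H * s →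
      |∑ k ∈ Ico ⌈(t : ℝ) * s⌉₊ n, (s : ℝ) * l.ev ((k : ℝ) / s)
        - (s : ℝ) ^ 2 * (l.area t H : ℚ)| ≤ C * s
  | .last c0 c1, t, H, ht, hok => by
    have htH : (t : ℝ) ≤ H := by exact_mod_cast (show t ≤ H from hok)
    have ht' : (0 : ℝ) ≤ t := by exact_mod_cast ht
    refine ⟨2 * |(c0 : ℝ)| + |(c1 : ℝ)| * (3 * H + 2), ?_, fun s hs n hn => ?_⟩
    · have : (0 : ℝ) ≤ H := ht'.trans htH
      positivity
    · have hs0 : (0 : ℝ) < s := by exact_mod_cast hs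
      have hts : (0 : ℝ) ≤ t * s := by positivity
      have han : ⌈(t : ℝ) * s⌉₊ ≤ n :=
        Nat.ceil_le.2 (by rw [hn]; exact mul_le_mul_of_nonneg_right htH hs0.le)
      have h := sum_lin c0 c1 t H ht' htH s _ n hs han (Nat.le_ceil _)
        (Nat.ceil_lt_add_one hts).le hn.ge (by linarith)
      have e1 : ((PL.last c0 c1).area t H : ℝ)
          = (c0 : ℝ) * (H - t) + c1 * ((H : ℝ) ^ 2 - (t : ℝ) ^ 2) / 2 := by
        simp [PL.area]
      rw [e1]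
      exact h
  | .cons e c0 c1 l, t, H, ht, hok => by
    have hte : (t : ℝ) ≤ e := by exact_mod_cast hok.1
    have heH : (e : ℝ) ≤ H := by exact_mod_cast PL.ok_le _ _ _ hok.2
    have ht' : (0 : ℝ) ≤ t := by exact_mod_cast ht
    have he' : (0 : ℝ) ≤ e := ht'.trans hte
    obtain ⟨C, hC0, hC⟩ := PL.sum_ev l e H (ht.trans hok.1) hok.2
    refine ⟨2 * |(c0 : ℝ)| + |(c1 : ℝ)| * (3 * e + 2) + C, by positivity, fun s hs n hn => ?_⟩
    have hs0 : (0 : ℝ) < s := by exact_mod_cast hs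
    have hts : (0 : ℝ) ≤ t * s := by positivity
    have hes : (0 : ℝ) ≤ e * s := by positivity
    have hab : ⌈(t : ℝ) * s⌉₊ ≤ ⌈(e : ℝ) * s⌉₊ :=
      Nat.ceil_mono (mul_le_mul_of_nonneg_right hte hs0.le)
    have hbn : ⌈(e : ℝ) * s⌉₊ ≤ n :=
      Nat.ceil_le.2 (by rw [hn]; exact mul_le_mul_of_nonneg_right heH hs0.le)
    have h1 := sum_lin c0 c1 t e ht' hte s _ _ hs hab (Nat.le_ceil _)
      (Nat.ceil_lt_add_one hts).le (Nat.le_ceil _) (Nat.ceil_lt_add_one hes).le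
    have h2 := hC s hs n hn
    have e1 : ∑ k ∈ Ico ⌈(t : ℝ) * s⌉₊ n, (s : ℝ) * (PL.cons e c0 c1 l).ev ((k : ℝ) / s)
        = ∑ k ∈ Ico ⌈(t : ℝ) * s⌉₊ ⌈(e : ℝ) * s⌉₊, (s : ℝ) * (c0 + c1 * ((k : ℝ) / s))
          + ∑ k ∈ Ico ⌈(e : ℝ) * s⌉₊ n, (s : ℝ) * l.ev ((k : ℝ) / s) := by
      rw [← Finset.sum_Ico_consecutive _ hab hbn]
      congr 1
      · refine sum_congr rfl fun k hk => ?_
        have h3 : (k : ℝ) < e * s := Nat.lt_ceil.1 (mem_Ico.1 hk).2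
        have h4 : (k : ℝ) / s < e := (div_lt_iff₀ hs0).2 h3
        change (s : ℝ) * (if (k : ℝ) / s < (e : ℝ) then (c0 : ℝ) + c1 * ((k : ℝ) / s) else _) = _
        rw [if_pos h4]
      · refine sum_congr rfl fun k hk => ?_
        have h3 : (e : ℝ) * s ≤ k := Nat.ceil_le.1 (mem_Ico.1 hk).1
        have h4 : ¬ (k : ℝ) / s < e := not_lt.2 ((le_div_iff₀ hs0).2 h3)
        change (s : ℝ) * (if (k : ℝ) / s < (e : ℝ) then _ else l.ev ((k : ℝ) / s)) = _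
        rw [if_neg h4]
    have e2 : ((PL.cons e c0 c1 l).area t H : ℝ)
        = ((c0 : ℝ) * (e - t) + c1 * ((e : ℝ) ^ 2 - (t : ℝ) ^ 2) / 2) + (l.area e H : ℚ) := by
      simp [PL.area]
    rw [e1, e2]
    have e3 : (∑ k ∈ Ico ⌈(t : ℝ) * s⌉₊ ⌈(e : ℝ) * s⌉₊, (s : ℝ) * (c0 + c1 * ((k : ℝ) / s))
          + ∑ k ∈ Ico ⌈(e : ℝ) * s⌉₊ n, (s : ℝ) * l.ev ((k : ℝ) / s))
        - (s : ℝ) ^ 2 * (((c0 : ℝ) * (e - t) + c1 * ((e : ℝ) ^ 2 - (t : ℝ) ^ 2) / 2)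
          + (l.area e H : ℚ))
        = (∑ k ∈ Ico ⌈(t : ℝ) * s⌉₊ ⌈(e : ℝ) * s⌉₊, (s : ℝ) * (c0 + c1 * ((k : ℝ) / s))
          - (s : ℝ) ^ 2 * ((c0 : ℝ) * (e - t) + c1 * ((e : ℝ) ^ 2 - (t : ℝ) ^ 2) / 2))
        + (∑ k ∈ Ico ⌈(e : ℝ) * s⌉₊ n, (s : ℝ) * l.ev ((k : ℝ) / s)
          - (s : ℝ) ^ 2 * (l.area e H : ℚ)) := by ring
    rw [e3, add_mul]
    exact (abs_add_le _ _).trans (add_le_add h1 h2)

/-- Riemann sums from `0` -/
theorem PL.sum_range (l : PL) (H : ℕ) (hok : l.ok 0 H) : ∃ C : ℝ, 0 ≤ C ∧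
    ∀ s : ℕ, 1 ≤ s → |∑ k ∈ range (H * s), (s : ℝ) * l.ev ((k : ℝ) / s)
        - (s : ℝ) ^ 2 * (l.area 0 H : ℚ)| ≤ C * s := by
  obtain ⟨C, hC0, hC⟩ := PL.sum_ev l 0 H le_rfl hok
  refine ⟨C, hC0, fun s hs => ?_⟩
  have h := hC s hs (H * s) (by push_cast; ring)
  have e1 : ⌈((0 : ℚ) : ℝ) * (s : ℝ)⌉₊ = 0 := by simp
  rw [e1, ← Finset.range_eq_Ico] at h
  exact h

end Vale.Agent.P030.H579
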