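import Vale.Agent.P030.T.ArRed
import Vale.Agent.P030.H914.Trop
import Vale.Agent.P030.H579.PL

/-!
# P030, the 2-adic place: `StTW` from a product form certificate

`stTW_of_pl` : potentials = piecewise linear functions (rational data) of `i/s` for the eight row
lines and of `k/s` for the 17 groups.  Everything of size `o(s²)` is collected here.
-/

open Finset Matrix

namespace Vale.Agent.P030.H579

open Vale.Agent.P030.T

/-- `StTW` from a bound for the norm of the determinant -/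
theorem stTW_of_norm {P : Par} {c0 : ℕ} {B : ℝ}
    (h : ∀ x : ℚ, ∀ ε : ℝ, 0 < ε → ∃ s0 : ℕ, ∀ s, s0 ≤ s → ∀ σ, Adm P c0 s σ →
      (Mx (P.D0 * s) x σ).det ≠ 0 →
      ‖(((Mx (P.D0 * s) x σ).det : ℚ) : ℚ_[2])‖ ≤ (2 : ℝ) ^ ((B + ε) * (s : ℝ) ^ 2)) :
    StTW P c0 (B * Real.log 2) := by
  intro x ε hε
  have hl : 0 < Real.log 2 := Real.log_pos one_lt_two
  obtain ⟨s0, h0⟩ := h x (ε / Real.log 2) (by positivity)
  refine ⟨s0, fun s hs σ hσ hd => ?_⟩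
  have h1 := h0 s hs σ hσ hd
  set d := (Mx (P.D0 * s) x σ).det with hdd
  have h2 : ‖((d : ℚ) : ℚ_[2])‖ = (2 : ℝ) ^ (-(padicValRat 2 d : ℝ)) := by
    rw [Padic.eq_padicNorm, padicNorm.eq_zpow_of_nonzero hd]
    push_cast
    rw [← Real.rpow_intCast]
    push_cast
    rfl
  rw [h2] at h1
  have h3 : -(padicValRat 2 d : ℝ) ≤ (B + ε / Real.log 2) * (s : ℝ) ^ 2 :=
    (Real.rpow_le_rpow_left_iff one_lt_two).1 h1
  have h4 := mul_le_mul_of_nonneg_right h3 hl.le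
  have h5 : (B + ε / Real.log 2) * (s : ℝ) ^ 2 * Real.log 2
      = (B * Real.log 2 + ε) * (s : ℝ) ^ 2 := by
    field_simp
  rw [h5] at h4
  exact h4

/-- the potential of a row -/
noncomputable def rowPot (a : Fin 8 → PL) (D s : ℕ) (r : Fin D × Fin 8) : ℝ :=
  (s : ℝ) * (a r.2).ev (((r.1 : ℕ) : ℝ) / s)

/-- the potential of a column -/
noncomputable def colPot (b : Gp → PL) (s : ℕ) (c : Cl) : ℝ :=
  (s : ℝ) * (b c.1).ev ((c.2 : ℝ) / s)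

/-- the value of a product form certificate: row change `u`, rows, columns -/
def tot (P : Par) (u : ℚ) (a : Fin 8 → PL) (b : Gp → PL) : ℚ :=
  u + ∑ j, (a j).area 0 P.D0 + ∑ g, (b g).area 0 (P.ht g)

theorem sum_rowPot (a : Fin 8 → PL) (D0 : ℕ) (ha : ∀ j, (a j).ok 0 D0) : ∃ C : ℝ, 0 ≤ C ∧
    ∀ s : ℕ, 1 ≤ s → ∑ r, rowPot a (D0 * s) s r
      ≤ (s : ℝ) ^ 2 * ((∑ j, (a j).area 0 D0 : ℚ) : ℝ) + C * s := by
  choose C hC0 hC using fun j => PL.sum_range (a j) D0 (ha j)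
  refine ⟨∑ j, C j, Finset.sum_nonneg fun j _ => hC0 j, fun s hs => ?_⟩
  have e1 : ∑ r, rowPot a (D0 * s) s r
      = ∑ j, ∑ k ∈ range (D0 * s), (s : ℝ) * (a j).ev ((k : ℝ) / s) := by
    rw [Fintype.sum_prod_type, Finset.sum_comm]
    refine Finset.sum_congr rfl fun j _ => ?_
    exact Fin.sum_univ_eq_sum_range (fun k => (s : ℝ) * (a j).ev ((k : ℝ) / s)) (D0 * s)
  rw [e1]
  push_cast
  rw [Finset.mul_sum, Finset.sum_mul, ← Finset.sum_add_distrib]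
  refine Finset.sum_le_sum fun j _ => ?_
  have := (abs_le.1 (hC j s hs)).2
  linarith

theorem sum_colPot {P : Par} {c0 : ℕ} (hcard : ∑ g : Gp, P.ht g = 8 * P.D0) (b : Gp → PL)
    (hb : ∀ g, (b g).ok 0 (P.ht g)) : ∃ C : ℝ, 0 ≤ C ∧ ∀ s : ℕ, 1 ≤ s → ∀ σ, Adm P c0 s σ →
      ∑ r, colPot b s (σ r) ≤ (s : ℝ) ^ 2 * ((∑ g, (b g).area 0 (P.ht g) : ℚ) : ℝ) + C * s := by
  choose C hC0 hC using fun g => PL.sum_range (b g) (P.ht g) (hb g)
  choose M hM0 hM using fun g => PL.ev_bdd ((P.ht g : ℝ) + c0) (b g)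
  obtain ⟨C', hC'⟩ : ∃ C' : ℝ, C' = ∑ g, C g := ⟨_, rfl⟩
  obtain ⟨M', hM'⟩ : ∃ M' : ℝ, M' = ∑ g, M g := ⟨_, rfl⟩
  have hC'0 : 0 ≤ C' := by rw [hC']; exact Finset.sum_nonneg fun g _ => hC0 g
  have hM'0 : 0 ≤ M' := by rw [hM']; exact Finset.sum_nonneg fun g _ => hM0 g
  have hCM : 0 ≤ C' + 34 * (c0 : ℝ) * M' :=
    add_nonneg hC'0 (mul_nonneg (mul_nonneg (by norm_num) (Nat.cast_nonneg _)) hM'0)
  refine ⟨C' + 34 * (c0 : ℝ) * M', hCM, fun s hs σ hσ => ?_⟩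
  · have hs0 : (0 : ℝ) < s := by exact_mod_cast hs
    have hs1 : (1 : ℝ) ≤ s := by exact_mod_cast hs
    have h1 := sum_sel_le (P := P) (c0 := c0) (s := s) hcard hσ (β := colPot b s)
      (b := s * M') (by
        rintro ⟨g, k⟩ hk
        have hk' : (k : ℝ) ≤ P.ht g * s + c0 := by exact_mod_cast hk.le
        have h2 : (k : ℝ) / s ≤ (P.ht g : ℝ) + c0 := by
          rw [div_le_iff₀ hs0]
          have : (c0 : ℝ) ≤ c0 * s := le_mul_of_one_le_right (Nat.cast_nonneg _) hs1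
          nlinarith
        have h3 := hM g ((k : ℝ) / s) (div_nonneg (Nat.cast_nonneg _) hs0.le) h2
        unfold colPot
        rw [abs_mul, abs_of_pos hs0]
        refine mul_le_mul_of_nonneg_left (h3.trans ?_) hs0.le
        rw [hM']
        exact Finset.single_le_sum (f := M) (fun g _ => hM0 g) (Finset.mem_univ g))
    have h4 : ∑ g : Gp, ∑ k ∈ range (P.ht g * s), colPot b s (g, k)
        ≤ (s : ℝ) ^ 2 * ((∑ g, (b g).area 0 (P.ht g) : ℚ) : ℝ) + C' * s := by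
      push_cast
      rw [hC']
      rw [Finset.mul_sum, Finset.sum_mul, ← Finset.sum_add_distrib]
      refine Finset.sum_le_sum fun g _ => ?_
      have := (abs_le.1 (hC g s hs)).2
      unfold colPot
      linarith
    have h5 : (C' + 34 * (c0 : ℝ) * M') * s = C' * s + 34 * c0 * (s * M') := by ring
    rw [h5]
    linarith

/-- **StTW from a product form certificate**: only the inequality for one large `s` is left. -/
theorem stTW_of_pl {P : Par} {c0 : ℕ} (hcard : ∑ g : Gp, P.ht g = 8 * P.D0) (u : ℚ)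
    (a : Fin 8 → PL) (b : Gp → PL) (ha : ∀ j, (a j).ok 0 P.D0) (hb : ∀ g, (b g).ok 0 (P.ht g))
    (h : ∀ x : ℚ, ∀ η : ℝ, 0 < η → ∃ s0 : ℕ, ∀ s, s0 ≤ s → ∀ σ, Adm P c0 s σ →
      (Mx (P.D0 * s) x σ).det ≠ 0 →
      ‖(((Mx (P.D0 * s) x σ).det : ℚ) : ℚ_[2])‖ ≤
        (2 : ℝ) ^ ((u + η) * (s : ℝ) ^ 2 + ∑ r, rowPot a (P.D0 * s) s r
          + ∑ r, colPot b s (σ r))) :
    StTW P c0 (tot P u a b * Real.log 2) := by
  refine stTW_of_norm fun x ε hε => ?_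
  obtain ⟨s0, h0⟩ := h x (ε / 2) (by linarith)
  obtain ⟨C1, hC1, h1⟩ := sum_rowPot a P.D0 ha
  obtain ⟨C2, hC2, h2⟩ := sum_colPot (c0 := c0) hcard b hb
  obtain ⟨s1, hs1⟩ := exists_nat_ge ((C1 + C2) / (ε / 2))
  refine ⟨max (max s0 s1) 1, fun s hs σ hσ hd => ?_⟩
  have hs0' : s0 ≤ s := le_trans (le_trans (le_max_left _ _) (le_max_left _ _)) hs
  have hs1' : s1 ≤ s := le_trans (le_trans (le_max_right _ _) (le_max_left _ _)) hs
  have hs2 : 1 ≤ s := le_trans (le_max_right _ _) hs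
  refine (h0 s hs0' σ hσ hd).trans ?_
  refine Real.rpow_le_rpow_of_exponent_le one_le_two ?_
  have h3 := h1 s hs2
  have h4 := h2 s hs2 σ hσ
  have h5 : (C1 + C2) ≤ ε / 2 * s := by
    have h6 : (C1 + C2) / (ε / 2) ≤ s := hs1.trans (by exact_mod_cast hs1')
    rw [div_le_iff₀ (by linarith)] at h6
    linarith
  have hs3 : (0 : ℝ) ≤ s := Nat.cast_nonneg _
  have h7 : (C1 + C2) * s ≤ ε / 2 * s * s := mul_le_mul_of_nonneg_right h5 hs3
  have e1 : (tot P u a b : ℝ) = u + ((∑ j, (a j).area 0 P.D0 : ℚ) : ℝ)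
      + ((∑ g, (b g).area 0 (P.ht g) : ℚ) : ℝ) := by
    unfold tot; push_cast; ring
  rw [e1]
  nlinarith

/-- the bound for one `s` from entry bounds, after a row change `U` over `ℚ_2` -/
theorem norm_det_le_of_entries {P : Par} {c0 s : ℕ} {x : ℚ}
    {σ : Fin (P.D0 * s) × Fin 8 → Cl} (hσ : Adm P c0 s σ)
    (U : Matrix (Fin (P.D0 * s) × Fin 8) (Fin (P.D0 * s) × Fin 8) ℚ_[2]) {u : ℝ}
    (hU : (2 : ℝ) ^ (-u) ≤ ‖U.det‖) (α : Fin (P.D0 * s) × Fin 8 → ℝ) (β : Cl → ℝ)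
    (h : ∀ c : Cl, c.2 < P.ht c.1 * s + c0 → ∀ r,
      ‖∑ r', U r r' * ((En (P.D0 * s) x r' c : ℚ) : ℚ_[2])‖ ≤ (2 : ℝ) ^ (α r + β c)) :
    ‖(((Mx (P.D0 * s) x σ).det : ℚ) : ℚ_[2])‖ ≤
      (2 : ℝ) ^ (u + ∑ r, α r + ∑ r, β (σ r)) := by
  have h2 : (0 : ℝ) < 2 := two_pos
  set N : Matrix (Fin (P.D0 * s) × Fin 8) (Fin (P.D0 * s) × Fin 8) ℚ_[2] :=
    (Mx (P.D0 * s) x σ).map (algebraMap ℚ ℚ_[2]) with hN
  have h1 : ((((Mx (P.D0 * s) x σ).det : ℚ) : ℚ_[2])) = N.det := by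
    rw [hN, ← RingHom.mapMatrix_apply, ← RingHom.map_det]
    rfl
  have h3 : ‖(U * N).det‖ ≤ (∏ r, (2 : ℝ) ^ α r) * ∏ r, (2 : ℝ) ^ β (σ r) := by
    refine H914.det_norm_le (U * N) _ _ (fun _ => (Real.rpow_pos_of_pos h2 _).le)
      (fun _ => (Real.rpow_pos_of_pos h2 _).le) fun i j => ?_
    rw [← Real.rpow_add h2]
    exact h (σ j) (hσ.2 j) i
  rw [Matrix.det_mul, norm_mul, ← Real.rpow_sum_of_pos h2, ← Real.rpow_sum_of_pos h2,
    ← Real.rpow_add h2] at h3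
  have h4 : (2 : ℝ) ^ (-u) * ‖N.det‖ ≤ (2 : ℝ) ^ (∑ r, α r + ∑ r, β (σ r)) :=
    (mul_le_mul_of_nonneg_right hU (norm_nonneg _)).trans h3
  rw [h1, add_assoc, Real.rpow_add h2 u]
  have h5 : (0 : ℝ) < (2 : ℝ) ^ u := Real.rpow_pos_of_pos h2 _
  have h6 : (2 : ℝ) ^ u * (2 : ℝ) ^ (-u) = 1 := by
    rw [← Real.rpow_add h2, add_neg_cancel, Real.rpow_zero]
  calc ‖N.det‖ = (2 : ℝ) ^ u * ((2 : ℝ) ^ (-u) * ‖N.det‖) := by rw [← mul_assoc, h6, one_mul]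
    _ ≤ _ := mul_le_mul_of_nonneg_left h4 h5.le

/-- **StTW from entry bounds**: `U` = row change over `ℚ_2`, `‖det U‖ ≥ 2^(-(u+η) s²)`; every
entry of `U * Mx` (all pool columns) is at most `2^(s a_j(i/s) + s b_g(k/s) + η s)`. -/
theorem stTW_of_entries {P : Par} {c0 : ℕ} (hcard : ∑ g : Gp, P.ht g = 8 * P.D0) (u : ℚ)
    (a : Fin 8 → PL) (b : Gp → PL) (ha : ∀ j, (a j).ok 0 P.D0) (hb : ∀ g, (b g).ok 0 (P.ht g))
    (h : ∀ x : ℚ, ∀ η : ℝ, 0 < η → ∃ s0 : ℕ, ∀ s, s0 ≤ s →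
      ∃ U : Matrix (Fin (P.D0 * s) × Fin 8) (Fin (P.D0 * s) × Fin 8) ℚ_[2],
        (2 : ℝ) ^ (-((u + η) * (s : ℝ) ^ 2)) ≤ ‖U.det‖ ∧
        ∀ c : Cl, c.2 < P.ht c.1 * s + c0 → ∀ r,
          ‖∑ r', U r r' * ((En (P.D0 * s) x r' c : ℚ) : ℚ_[2])‖
            ≤ (2 : ℝ) ^ (rowPot a (P.D0 * s) s r + colPot b s c + η * s)) :
    StTW P c0 (tot P u a b * Real.log 2) := by
  refine stTW_of_pl hcard u a b ha hb fun x η hη => ?_
  have hz : (0 : ℝ) < 8 * (P.D0 : ℝ) + 1 := by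
    have := Nat.cast_nonneg (α := ℝ) P.D0
    linarith
  obtain ⟨ζ, hζ⟩ : ∃ ζ : ℝ, ζ = η / (8 * (P.D0 : ℝ) + 1) := ⟨_, rfl⟩
  have hζ0 : 0 < ζ := by rw [hζ]; exact div_pos hη hz
  obtain ⟨s0, h0⟩ := h x ζ hζ0
  refine ⟨s0, fun s hs σ hσ _ => ?_⟩
  obtain ⟨U, hU, hE⟩ := h0 s hs
  have key := norm_det_le_of_entries hσ U hU
    (fun r => rowPot a (P.D0 * s) s r + ζ * s) (colPot b s) (by
      intro c hc r
      have h1 := hE c hc r
      have e0 : rowPot a (P.D0 * s) s r + ζ * s + colPot b s c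
          = rowPot a (P.D0 * s) s r + colPot b s c + ζ * s := by ring
      rw [e0]
      exact h1)
  refine key.trans (Real.rpow_le_rpow_of_exponent_le one_le_two (le_of_eq ?_))
  have e1 : ζ * (8 * (P.D0 : ℝ) + 1) = η := by rw [hζ, div_mul_cancel₀ _ hz.ne']
  have e3 : ∑ r : Fin (P.D0 * s) × Fin 8, (rowPot a (P.D0 * s) s r + ζ * s)
      = ∑ r, rowPot a (P.D0 * s) s r + (P.D0 * s * 8 : ℝ) * (ζ * s) := by
    rw [Finset.sum_add_distrib, Finset.sum_const, Finset.card_univ, Fintype.card_prod,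
      Fintype.card_fin, Fintype.card_fin, nsmul_eq_mul]
    push_cast
    ring
  rw [e3, ← e1]
  ring

end Vale.Agent.P030.H579
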