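import Vale.Agent.P030.H869.Ev
import Vale.Agent.P030.H579.TwGlue

/-!
# P030, the 2-adic place: a triangular family of rows as a row change matrix

`Uf R` is the matrix which carries the rows `μ_i e_j` of the frame to the rows `R r` (8-tuples of
polynomials in `S`).
-/

open Finset Matrix
open scoped Kronecker

namespace Vale.Agent.P030.H579

open Vale.Agent.P030.T Vale.Agent.P030.H869

section

variable (K : Type*) [Field K] [Algebra ℚ K]

/-- the row change of a family of rows -/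
noncomputable def Uf {D : ℕ} (R : Fin D × Fin 8 → Fin 8 → Polynomial K) :
    Matrix (Fin D × Fin 8) (Fin D × Fin 8) K :=
  Cf K R * (Cb K D ⊗ₖ (1 : Matrix (Fin 8) (Fin 8) K))

omit [Algebra ℚ K] in
theorem Uf_apply {D : ℕ} (R : Fin D × Fin 8 → Fin 8 → Polynomial K) (r q : Fin D × Fin 8) :
    Uf K R r q = ∑ a : Fin D, (R r q.2).coeff a * Cb K D a q.1 := by
  unfold Uf
  rw [Matrix.mul_apply, Fintype.sum_prod_type]
  refine Finset.sum_congr rfl fun a _ => ?_
  rw [Finset.sum_eq_single q.2]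
  · obtain ⟨i, j⟩ := q
    simp [Cf, Matrix.kroneckerMap_apply]
  · intro b _ hb
    obtain ⟨i, j⟩ := q
    simp [Cf, Matrix.kroneckerMap_apply, Matrix.one_apply_ne hb]
  · simp

/-- the new rows on any column -/
theorem Uf_col {D : ℕ} (R : Fin D × Fin 8 → Fin 8 → Polynomial K) (r : Fin D × Fin 8)
    (c : Fin 4) (tup : Fin 8 → PowerSeries K) (k : ℕ) :
    ∑ r', Uf K R r r' * PowerSeries.coeff k
        ((mon D c r'.1).map (algebraMap ℚ K) * tup r'.2)
      = ∑ j, PowerSeries.coeff k (evP K D c (R r j) * tup j) := by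
  rw [Fintype.sum_prod_type, Finset.sum_comm]
  refine Finset.sum_congr rfl fun j _ => ?_
  rw [evP_eq, Finset.sum_mul, map_sum]
  refine Finset.sum_congr rfl fun i _ => ?_
  rw [Uf_apply, mul_assoc, PowerSeries.coeff_C_mul]

/-- the new rows on the columns of the frame -/
theorem Uf_En {D : ℕ} (R : Fin D × Fin 8 → Fin 8 → Polynomial K) (x : K) (r : Fin D × Fin 8)
    (c : Cl) : ∑ r', Uf K R r r' * En D x r' c = rowVal K D x c.1 c.2 (R r) := by
  rw [rowVal, ← Uf_col K R r c.1.cusp (Tup K x c.1) c.2]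
  exact Finset.sum_congr rfl fun r' _ => by rw [← En_eq]

omit [Algebra ℚ K] in
/-- the determinant of the row change -/
theorem det_Uf {D : ℕ} (R : Fin D × Fin 8 → Fin 8 → Polynomial K)
    (π : Equiv.Perm (Fin 8)) (h : ∀ r j, π j < π r.2 → R r j = 0) :
    (Uf K R).det = ∏ j, (blk K R j).det := by
  unfold Uf
  rw [Matrix.det_mul, det_Cf K R π h, Matrix.det_kronecker]
  have h8 : (Cb K D).det ^ Fintype.card (Fin 8) = 1 := by
    rcases det_Cb K D with h1 | h1 <;> rw [h1]
    · simp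
    · rw [Fintype.card_fin]
      norm_num
  rw [h8]
  simp

end

section two

/-- entries of the frame over `ℚ`, seen in `ℚ_2` -/
theorem En_castP {D : ℕ} (x : ℚ) (r : Fin D × Fin 8) (c : Cl) :
    ((En D x r c : ℚ) : ℚ_[2]) = En D (algebraMap ℚ ℚ_[2] x) r c := by
  simp [En]

theorem Uf_En_cast {D : ℕ} (R : Fin D × Fin 8 → Fin 8 → Polynomial ℚ_[2]) (x : ℚ)
    (r : Fin D × Fin 8) (c : Cl) :
    ∑ r', Uf ℚ_[2] R r r' * ((En D x r' c : ℚ) : ℚ_[2])
      = rowVal ℚ_[2] D (algebraMap ℚ ℚ_[2] x) c.1 c.2 (R r) := by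
  rw [← Uf_En]
  exact Finset.sum_congr rfl fun r' _ => by rw [En_castP]

/-- any rational 8-tuple as a column -/
theorem Uf_tup_cast {D : ℕ} (R : Fin D × Fin 8 → Fin 8 → Polynomial ℚ_[2])
    (r : Fin D × Fin 8) (c : Fin 4) (tup : Fin 8 → PowerSeries ℚ) (k : ℕ) :
    ∑ r', Uf ℚ_[2] R r r' * ((PowerSeries.coeff k (mon D c r'.1 * tup r'.2) : ℚ) : ℚ_[2])
      = ∑ j, PowerSeries.coeff k
          (evP ℚ_[2] D c (R r j) * (tup j).map (algebraMap ℚ ℚ_[2])) := by
  rw [← Uf_col ℚ_[2] R r c (fun j => (tup j).map (algebraMap ℚ ℚ_[2])) k]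
  refine Finset.sum_congr rfl fun r' _ => ?_
  rw [← map_mul, PowerSeries.coeff_map]
  simp

end two

end Vale.Agent.P030.H579
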