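import Vale.Agent.P030.H622.ColC1
import Vale.Agent.P030.H869.Join2
import Vale.Agent.P030.H579.DesF
import Vale.Agent.P030.H579.UForm

/-!
# P030, the 2-adic place: the assembly of `StTW` for the frozen design

`KRowIn c0` is the only input: the entries of the two Hermite lines (K-rows).
`stTW_F : KRowIn c0 → StTW parA c0 (13945/4 * log 2)`.
-/

open Finset

namespace Vale.Agent.P030.H579

open Vale.Agent.P030.T Vale.Agent.P030.H869 Vale.Agent.P030.H622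
open Vale.Agent.P030.H486 (bnd tab cst Kd tab6 tabd t6 td)

/-- the Hermite family of the frozen design -/
noncomputable def hF (s i : ℕ) : Polynomial ℚ_[2] :=
  H721.hm (1 : ℚ_[2]) (1 / 2) 0 (nA s) (nB s) (nC s) i

/-- exponent of the row `i` -/
noncomputable def ap (s i : ℕ) : ℝ := ((H721.Apot (nA s) (nB s) (nC s) i : ℤ) : ℝ)
/-- exponent of the circle `c` -/
noncomputable def wc (s : ℕ) (c : Fin 4) : ℝ := ((H721.Wc (nA s) (nB s) (nC s) c : ℤ) : ℝ)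

/-- sizes of the entries of the K-rows -/
noncomputable def kb (s i k : ℕ) : Gp → ℝ
  | .z1 => max ((2 : ℝ) ^ (ap s i + wc s 0 + 2 * k)) ((2 : ℝ) ^ (ap s i + wc s 3 - 81 * s))
  | .z8 => (2 : ℝ) ^ (ap s i + wc s 0 + 2 * k)
  | .w1 => (2 : ℝ) ^ (ap s i + wc s 3 - 54 * s)
  | .wy => (2 : ℝ) ^ (ap s i + wc s 1 + 2 * k)
  | .w8 => (2 : ℝ) ^ (ap s i + wc s 1 + 2 * k)
  | .v8 => (2 : ℝ) ^ (ap s i + wc s 2 + 2 * k)
  | .x2 => (2 : ℝ) ^ (ap s i + wc s 3 - 54 * s + 2 * k)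
  | .xl => (2 : ℝ) ^ (ap s i + wc s 3 - 54 * s + 2 * k)
  | .x1 => (2 : ℝ) ^ (ap s i + wc s 3 - 54 * s + 2 * k)
  | _ => 0

/-- **the input: the K-rows** -/
def KRowIn (c0 : ℕ) : Prop :=
  ∀ x : ℚ, ∃ (C : ℝ) (m : ℕ), 0 ≤ C ∧ ∀ s : ℕ, 1 ≤ s → ∀ n : ℕ, n + 1 = 27 * s →
    ∃ tF tT : Fin (n + 1) → Polynomial ℚ_[2], ∀ (i : Fin (n + 1)) (g : Gp) (k : ℕ),
      k < parA.ht g * s + c0 →
      ‖rowVal ℚ_[2] (n + 1) (algebraMap ℚ ℚ_[2] x) g k (krow 6 (hF s i) (tF i))‖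
          ≤ C * ((s : ℝ) + 1) ^ m * kb s i k g ∧
      ‖rowVal ℚ_[2] (n + 1) (algebraMap ℚ ℚ_[2] x) g k (krow 7 (hF s i) (tT i))‖
          ≤ C * ((s : ℝ) + 1) ^ m * kb s i k g

/-- polynomials are smaller than `2^(η s)` -/
theorem poly_le (C : ℝ) (m : ℕ) {η : ℝ} (hη : 0 < η) :
    ∃ s0 : ℕ, ∀ s, s0 ≤ s → C * ((s : ℝ) + 1) ^ m ≤ (2 : ℝ) ^ (η * s) := by
  have h1 : (1 : ℝ) < (2 : ℝ) ^ η := Real.one_lt_rpow one_lt_two hη
  have h2 := tendsto_pow_const_div_const_pow_of_one_lt m h1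
  have hpos : (0 : ℝ) < 1 / ((|C| + 1) * (2 : ℝ) ^ m) := by positivity
  have h3 := h2.eventually (gt_mem_nhds hpos)
  obtain ⟨s0, h0⟩ := Filter.eventually_atTop.1 h3
  refine ⟨max s0 1, fun s hs => ?_⟩
  have hs0 : s0 ≤ s := (le_max_left _ _).trans hs
  have hs1 : 1 ≤ s := (le_max_right _ _).trans hs
  have h4 := h0 s hs0
  have h5 : (2 : ℝ) ^ (η * s) = ((2 : ℝ) ^ η) ^ s := by
    rw [Real.rpow_mul two_pos.le, Real.rpow_natCast]
  rw [h5]
  have hp : (0 : ℝ) < ((2 : ℝ) ^ η) ^ s := by positivity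
  rw [div_lt_iff₀ hp] at h4
  have hs1' : (1 : ℝ) ≤ s := by exact_mod_cast hs1
  have h6 : ((s : ℝ) + 1) ^ m ≤ (2 : ℝ) ^ m * (s : ℝ) ^ m := by
    rw [← mul_pow]
    exact pow_le_pow_left₀ (by positivity) (by linarith) m
  have h7 : C * ((s : ℝ) + 1) ^ m ≤ (|C| + 1) * ((2 : ℝ) ^ m * (s : ℝ) ^ m) := by
    have : C ≤ |C| + 1 := by linarith [le_abs_self C]
    exact mul_le_mul this h6 (by positivity) (by positivity)
  refine h7.trans ?_
  have h8 : (|C| + 1) * ((2 : ℝ) ^ m * (s : ℝ) ^ m) = (|C| + 1) * (2 : ℝ) ^ m * (s : ℝ) ^ m := by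
    ring
  rw [h8]
  have h9 := mul_le_mul_of_nonneg_left h4.le
    (show (0 : ℝ) ≤ (|C| + 1) * (2 : ℝ) ^ m by positivity)
  refine h9.trans (le_of_eq ?_)
  have : (|C| + 1) * (2 : ℝ) ^ m ≠ 0 := by positivity
  field_simp

theorem ev_ge_kap (g : Gp) (y : ℝ) (q : ℝ) (h : (g = .z1 ∧ q = 0) ∨ (g = .z8 ∧ q = 0)
    ∨ (g = .wy ∧ q = 14) ∨ (g = .w8 ∧ q = 14) ∨ (g = .v8 ∧ q = 18) ∨ (g = .x2 ∧ q = 28)
    ∨ (g = .xl ∧ q = 28)) : q + 2 * y ≤ (colF g).ev y := by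
  rcases h with ⟨rfl, rfl⟩ | ⟨rfl, rfl⟩ | ⟨rfl, rfl⟩ | ⟨rfl, rfl⟩ | ⟨rfl, rfl⟩ | ⟨rfl, rfl⟩
    | ⟨rfl, rfl⟩ <;> simp [colF, PL.ev] <;> split_ifs <;> linarith

/-- the potentials dominate the exponents of the K-rows -/
theorem kb_le (c0 s i k : ℕ) (hs : 1 ≤ s) (hc0 : c0 ≤ s) (g : Gp) (hk : k < parA.ht g * s + c0) :
    kb s i k g ≤ (2 : ℝ) ^ ((s : ℝ) * rowK.ev ((i : ℝ) / s) + colPot colF s (g, k) + 3) := by
  have hs0 : (0 : ℝ) < s := by exact_mod_cast hs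
  have h2 : (1 : ℝ) ≤ 2 := one_le_two
  have ha := apot_le s i hs
  have hmul : (s : ℝ) * ((k : ℝ) / s) = k := by field_simp
  have w0 := wc_le s 0
  have w1 := wc_le s 1
  have w2 := wc_le s 2
  have w3 := wc_le s 3
  simp [kap4] at w0 w1 w2 w3
  have hcol : ∀ q : ℝ, ((g = .z1 ∧ q = 0) ∨ (g = .z8 ∧ q = 0)
      ∨ (g = .wy ∧ q = 14) ∨ (g = .w8 ∧ q = 14) ∨ (g = .v8 ∧ q = 18) ∨ (g = .x2 ∧ q = 28)
      ∨ (g = .xl ∧ q = 28)) → q * s + 2 * k ≤ colPot colF s (g, k) := by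
    intro q hq
    have h := mul_le_mul_of_nonneg_left (ev_ge_kap g ((k : ℝ) / s) q hq) hs0.le
    have e : (s : ℝ) * (q + 2 * ((k : ℝ) / s)) = q * s + 2 * k := by
      rw [mul_add, mul_left_comm, hmul]; ring
    rw [e] at h
    exact h
  cases g
  case z1 =>
    refine max_le (Real.rpow_le_rpow_of_exponent_le h2 ?_)
      (Real.rpow_le_rpow_of_exponent_le h2 ?_)
    · have := hcol 0 (Or.inl ⟨rfl, rfl⟩)
      unfold ap wc; linarith
    · have : (27 : ℝ) * s ≤ colPot colF s (.z1, k) := by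
        unfold colPot
        rw [mul_comm (27 : ℝ)]
        refine mul_le_mul_of_nonneg_left ?_ hs0.le
        simp only [colF, PL.ev]
        split_ifs with h
        · simp
        · push_cast at h ⊢; linarith
      unfold ap wc; linarith
  case z8 =>
    refine Real.rpow_le_rpow_of_exponent_le h2 ?_
    have := hcol 0 (Or.inr (Or.inl ⟨rfl, rfl⟩))
    unfold ap wc; linarith
  case w1 =>
    refine Real.rpow_le_rpow_of_exponent_le h2 ?_
    have : (28 : ℝ) * s ≤ colPot colF s (.w1, k) := by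
      unfold colPot
      rw [mul_comm (28 : ℝ)]
      refine mul_le_mul_of_nonneg_left ?_ hs0.le
      simp only [colF, PL.ev]; norm_num
    unfold ap wc; linarith
  case wy =>
    refine Real.rpow_le_rpow_of_exponent_le h2 ?_
    have := hcol 14 (Or.inr (Or.inr (Or.inl ⟨rfl, rfl⟩)))
    unfold ap wc; linarith
  case w8 =>
    refine Real.rpow_le_rpow_of_exponent_le h2 ?_
    have := hcol 14 (Or.inr (Or.inr (Or.inr (Or.inl ⟨rfl, rfl⟩))))
    unfold ap wc; linarith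
  case v8 =>
    refine Real.rpow_le_rpow_of_exponent_le h2 ?_
    have := hcol 18 (Or.inr (Or.inr (Or.inr (Or.inr (Or.inl ⟨rfl, rfl⟩)))))
    unfold ap wc; linarith
  case x2 =>
    refine Real.rpow_le_rpow_of_exponent_le h2 ?_
    have := hcol 28 (Or.inr (Or.inr (Or.inr (Or.inr (Or.inr (Or.inl ⟨rfl, rfl⟩))))))
    unfold ap wc; linarith
  case xl =>
    refine Real.rpow_le_rpow_of_exponent_le h2 ?_
    have := hcol 28 (Or.inr (Or.inr (Or.inr (Or.inr (Or.inr (Or.inr ⟨rfl, rfl⟩))))))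
    unfold ap wc; linarith
  case x1 =>
    refine Real.rpow_le_rpow_of_exponent_le h2 ?_
    have hk' : (k : ℝ) ≤ 5 * s := by
      have : k ≤ 5 * s := by
        have : k < 4 * s + c0 := hk
        omega
      exact_mod_cast this
    have : (28 : ℝ) * s + 2 * k ≤ colPot colF s (.x1, k) := by
      unfold colPot
      simp only [colF, PL.ev]
      push_cast
      nlinarith
    unfold ap wc; linarith
  all_goals exact (Real.rpow_pos_of_pos two_pos _).le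

end Vale.Agent.P030.H579
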